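import Vale.Agent.P245.H792.Sym

/-!
# The combinatorial bound (15) for a third order tensor symmetric in two indices only

`A i e j` stands for `kappa * d_e d_j f_i` (symmetric in `e, j` only) and
`T e i j = (A i e j + A j e i) / 2` for the derivative of the symmetrised field.  The weights
`om` see only `T`, the right side is the full norm of `A`, and the constant stays below `2`.
-/

namespace Vale.Agent.P245.H646

open MeasureTheory Set Filter Topology Vale.Agent.P245.H792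

/-- a single weight is at most `8/3` -/
theorem om_le {b : ℝ} (hb : 0 < b) (z x y : ℝ) : om b z x y ≤ 8 / 3 := by
  rw [om_eq hb]
  by_cases hp : x * y ≤ 0
  · -- then `(x+y)^2 <= x^2 + y^2` and `k = 0`
    by_cases hs : z ^ 2 + x ^ 2 + y ^ 2 = 0
    · have hx : x = 0 := by nlinarith [sq_nonneg x, sq_nonneg y, sq_nonneg z]
      have hy : y = 0 := by nlinarith [sq_nonneg x, sq_nonneg y, sq_nonneg z]
      subst hx hy
      norm_num
    have hs' : 0 < z ^ 2 + x ^ 2 + y ^ 2 := lt_of_le_of_ne (by positivity) (Ne.symm hs)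
    have h := int_jj_le_max (A := z ^ 2) (B := x ^ 2) (C := y ^ 2) (k := 0) (b := b ^ 2)
      (by positivity) (by positivity) (by positivity) le_rfl (by positivity) hs'
      (by norm_num; positivity) (by norm_num; positivity)
    have h1 : b ^ 2 / (b ^ 2 + max (z ^ 2) (max (x ^ 2) (y ^ 2))) ≤ 1 := by
      apply div_le_one_of_le₀
      · have : 0 ≤ max (z ^ 2) (max (x ^ 2) (y ^ 2)) := le_max_of_le_left (sq_nonneg _)
        linarith
      · have : 0 ≤ max (z ^ 2) (max (x ^ 2) (y ^ 2)) := le_max_of_le_left (sq_nonneg _)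
        positivity
    have hJ : 0 ≤ ∫ v in (0 : ℝ)..(b ^ 2), jj (z ^ 2) (x ^ 2) (y ^ 2) v :=
      intervalIntegral.integral_nonneg (by positivity) fun v hv => jj_nonneg hv.1
    have h2 : (x + y) ^ 2 ≤ z ^ 2 + x ^ 2 + y ^ 2 + 0 := by nlinarith [sq_nonneg z]
    have h3 := mul_le_mul_of_nonneg_right h2 hJ
    linarith
  · push Not at hp
    set p := x * y with hpd
    set k := max 0 ((3 / 2) * p - (x ^ 2 + y ^ 2) / 4) with hk
    have hk0 : 0 ≤ k := le_max_left _ _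
    have hxy : 2 * p ≤ x ^ 2 + y ^ 2 := by nlinarith [sq_nonneg (x - y)]
    have hkp : k ≤ p := by
      rw [hk]; apply max_le hp.le; linarith
    have hs' : 0 < z ^ 2 + x ^ 2 + y ^ 2 := by nlinarith [sq_nonneg z]
    have hp2 : x ^ 2 * y ^ 2 = p ^ 2 := by rw [hpd]; ring
    have hkk : k * (x ^ 2 + y ^ 2) + k ^ 2 ≤ 3 * p ^ 2 := by
      rcases le_total ((3 / 2) * p - (x ^ 2 + y ^ 2) / 4) 0 with h | h
      · have : k = 0 := by rw [hk, max_eq_left h]
        rw [this]; norm_num; positivity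
      · have hke : k = (3 / 2) * p - (x ^ 2 + y ^ 2) / 4 := by rw [hk, max_eq_right h]
        rw [hke]
        nlinarith [sq_nonneg (x ^ 2 + y ^ 2 - 2 * p)]
    have h := int_jj_le_max (A := z ^ 2) (B := x ^ 2) (C := y ^ 2) (k := k) (b := b ^ 2)
      (by positivity) (by positivity) (by positivity) hk0 (by positivity) hs'
      (by
        have h1 : k ^ 2 ≤ p ^ 2 := by gcongr
        have h2 : 0 ≤ z ^ 2 * x ^ 2 + z ^ 2 * y ^ 2 := by positivity
        linarith)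
      (by
        have h1 : z ^ 2 * k ≤ z ^ 2 * (x ^ 2 + y ^ 2) := by
          apply mul_le_mul_of_nonneg_left _ (sq_nonneg z)
          linarith
        have h2 : 0 ≤ z ^ 2 * (x ^ 2 + y ^ 2) := by positivity
        nlinarith)
    have h1 : b ^ 2 / (b ^ 2 + max (z ^ 2) (max (x ^ 2) (y ^ 2))) ≤ 1 := by
      apply div_le_one_of_le₀
      · have : 0 ≤ max (z ^ 2) (max (x ^ 2) (y ^ 2)) := le_max_of_le_left (sq_nonneg _)
        linarith
      · have : 0 ≤ max (z ^ 2) (max (x ^ 2) (y ^ 2)) := le_max_of_le_left (sq_nonneg _)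
        positivity
    have hJ : 0 ≤ ∫ v in (0 : ℝ)..(b ^ 2), jj (z ^ 2) (x ^ 2) (y ^ 2) v :=
      intervalIntegral.integral_nonneg (by positivity) fun v hv => jj_nonneg hv.1
    have h2 : (x + y) ^ 2 ≤ 4 / 3 * (z ^ 2 + x ^ 2 + y ^ 2 + k) := by
      have : (3 / 2) * p - (x ^ 2 + y ^ 2) / 4 ≤ k := le_max_right _ _
      have e : (x + y) ^ 2 = x ^ 2 + y ^ 2 + 2 * p := by rw [hpd]; ring
      rw [e]
      nlinarith [sq_nonneg z]
    have h3 := mul_le_mul_of_nonneg_right h2 hJ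
    nlinarith

/-- the sum of the three weights is at most `26/5` -/
theorem om_sum_le' {b : ℝ} (hb : 0 < b) (x y z : ℝ) :
    om b x y z + om b y x z + om b z x y ≤ 26 / 5 := by
  refine (om_sum_le hb x y z).trans ?_
  have h0 : 0 ≤ max (x ^ 2) (max (y ^ 2) (z ^ 2)) := le_max_of_le_left (sq_nonneg _)
  have : b ^ 2 / (b ^ 2 + max (x ^ 2) (max (y ^ 2) (z ^ 2))) ≤ 1 :=
    div_le_one_of_le₀ (by linarith) (by positivity)
  linarith

/-- three nonnegative numbers, weights at most `8/3` with sum at most `26/5` -/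
theorem weights_le {W1 W2 W3 q1 q2 q3 : ℝ} (h1 : W1 ≤ 8 / 3) (h2 : W2 ≤ 8 / 3) (h3 : W3 ≤ 8 / 3)
    (k1 : 0 ≤ W1) (k2 : 0 ≤ W2) (k3 : 0 ≤ W3) (hs : W1 + W2 + W3 ≤ 26 / 5)
    (a1 : 0 ≤ q1) (a2 : 0 ≤ q2) (a3 : 0 ≤ q3) {M : ℝ}
    (m12 : 8 / 3 * q1 + 38 / 15 * q2 ≤ M) (m21 : 8 / 3 * q2 + 38 / 15 * q1 ≤ M)
    (m13 : 8 / 3 * q1 + 38 / 15 * q3 ≤ M) (m31 : 8 / 3 * q3 + 38 / 15 * q1 ≤ M)
    (m23 : 8 / 3 * q2 + 38 / 15 * q3 ≤ M) (m32 : 8 / 3 * q3 + 38 / 15 * q2 ≤ M) :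
    W1 * q1 + W2 * q2 + W3 * q3 ≤ M := by
  have key : ∀ {V1 V2 V3 r1 r2 r3 : ℝ}, V1 ≤ 8 / 3 → V1 + V2 + V3 ≤ 26 / 5 → 0 ≤ V3 →
      r2 ≤ r1 → r3 ≤ r2 → 0 ≤ r2 → V1 * r1 + V2 * r2 + V3 * r3 ≤ 8 / 3 * r1 + 38 / 15 * r2 := by
    intro V1 V2 V3 r1 r2 r3 e1 e2 e3 e4 e5 e6
    nlinarith [mul_nonneg (sub_nonneg.2 e1) (sub_nonneg.2 e4), mul_nonneg (sub_nonneg.2 e2) e6,
      mul_nonneg e3 (sub_nonneg.2 e5)]
  rcases le_total q1 q2 with h12 | h12 <;> rcases le_total q2 q3 with h23 | h23 <;>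
    rcases le_total q1 q3 with h13 | h13
  · have := key (V1 := W3) (V2 := W2) (V3 := W1) h3 (by linarith) k1 h23 h12 a2
    linarith
  · have := key (V1 := W3) (V2 := W2) (V3 := W1) h3 (by linarith) k1 h23 h12 a2
    linarith
  · have := key (V1 := W2) (V2 := W3) (V3 := W1) h2 (by linarith) k1 h23 h13 a3
    linarith
  · have := key (V1 := W2) (V2 := W1) (V3 := W3) h2 (by linarith) k3 h12 h13 a1
    linarith
  · have := key (V1 := W3) (V2 := W1) (V3 := W2) h3 (by linarith) k2 h13 h12 a1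
    linarith
  · have := key (V1 := W1) (V2 := W3) (V3 := W2) h1 (by linarith) k2 h13 h23 a3
    linarith
  · have := key (V1 := W1) (V2 := W2) (V3 := W3) h1 (by linarith) k3 h12 h23 a2
    linarith
  · have := key (V1 := W1) (V2 := W2) (V3 := W3) h1 (by linarith) k3 h12 h23 a2
    linarith

/-- the extreme quadratic form -/
theorem form_le (a b c : ℝ) :
    8 / 3 * ((b + c) / 2) ^ 2 + 38 / 15 * ((a + c) / 2) ^ 2 ≤
      1951 / 1000 * (a ^ 2 + b ^ 2 + c ^ 2) := by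
  nlinarith [sq_nonneg ((1951 / 1000 - 19 / 30) * a - 19 / 30 * c),
    sq_nonneg ((1951 / 1000 - 2 / 3) * b - 2 / 3 * c), sq_nonneg c]

/-- **the scalar inequality** -/
theorem scalar_A {W1 W2 W3 : ℝ} (h1 : W1 ≤ 8 / 3) (h2 : W2 ≤ 8 / 3) (h3 : W3 ≤ 8 / 3)
    (k1 : 0 ≤ W1) (k2 : 0 ≤ W2) (k3 : 0 ≤ W3) (hs : W1 + W2 + W3 ≤ 26 / 5) (a b c : ℝ) :
    W1 * ((b + c) / 2) ^ 2 + W2 * ((a + c) / 2) ^ 2 + W3 * ((a + b) / 2) ^ 2 ≤
      1951 / 1000 * (a ^ 2 + b ^ 2 + c ^ 2) := by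
  refine weights_le h1 h2 h3 k1 k2 k3 hs (by positivity) (by positivity) (by positivity)
    (form_le a b c) ?_ ?_ ?_ ?_ ?_
  · have := form_le b a c; linarith
  · have := form_le a c b
    have e : ((b + c) / 2) ^ 2 = ((c + b) / 2) ^ 2 := by ring
    rw [e]; linarith
  · have := form_le c a b
    have e : ((b + c) / 2) ^ 2 = ((c + b) / 2) ^ 2 := by ring
    rw [e]; linarith
  · have := form_le b c a
    have e : ((b + a) / 2) ^ 2 = ((a + b) / 2) ^ 2 := by ring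
    have e' : ((c + a) / 2) ^ 2 = ((a + c) / 2) ^ 2 := by ring
    rw [e, e'] at this; linarith
  · have := form_le c b a
    have e : ((b + a) / 2) ^ 2 = ((a + b) / 2) ^ 2 := by ring
    have e' : ((c + a) / 2) ^ 2 = ((a + c) / 2) ^ 2 := by ring
    rw [e, e'] at this; linarith

/-- **Item (15) for `A` symmetric in the last two indices only.** -/
theorem combA {ι : Type*} [Fintype ι] (A : ι → ι → ι → ℝ) (hA : ∀ i e j, A i e j = A i j e)
    (x : ι → ℝ) {b : ℝ} (hb : 0 < b) :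
    ∑ e, ∑ i, ∑ j, om b (x e) (x i) (x j) * ((A i e j + A j e i) / 2) ^ 2 ≤
      1951 / 1000 * ∑ i, ∑ e, ∑ j, A i e j ^ 2 := by
  set F : ι → ι → ι → ℝ := fun e i j =>
    om b (x e) (x i) (x j) * ((A i e j + A j e i) / 2) ^ 2 with hF
  have s1 : ∑ e, ∑ i, ∑ j, F i e j = ∑ e, ∑ i, ∑ j, F e i j := Finset.sum_comm
  have s2 : ∑ e, ∑ i, ∑ j, F j e i = ∑ e, ∑ i, ∑ j, F e i j := by
    have a1 : ∑ e, ∑ i, ∑ j, F j e i = ∑ e, ∑ j, ∑ i, F j e i :=
      Finset.sum_congr rfl fun e _ => Finset.sum_comm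
    rw [a1, Finset.sum_comm]
  have hpt : ∀ e i j, F e i j + F i e j + F j e i ≤
      1951 / 1000 * (A e i j ^ 2 + A i e j ^ 2 + A j e i ^ 2) := by
    intro e i j
    have h := scalar_A (om_le hb (x e) (x i) (x j)) (om_le hb (x i) (x e) (x j))
      (om_le hb (x j) (x e) (x i)) (om_nonneg hb _ _ _) (om_nonneg hb _ _ _) (om_nonneg hb _ _ _)
      (om_sum_le' hb (x e) (x i) (x j)) (A e i j) (A i e j) (A j e i)
    have e1 : F i e j = om b (x i) (x e) (x j) * ((A e i j + A j e i) / 2) ^ 2 := by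
      simp only [hF]
      rw [hA j i e]
    have e2 : F j e i = om b (x j) (x e) (x i) * ((A e i j + A i e j) / 2) ^ 2 := by
      simp only [hF]
      rw [hA e j i, hA i j e]
    rw [e1, e2]
    exact h
  have tot : ∑ e, ∑ i, ∑ j, (F e i j + F i e j + F j e i) ≤
      ∑ e, ∑ i, ∑ j, 1951 / 1000 * (A e i j ^ 2 + A i e j ^ 2 + A j e i ^ 2) :=
    Finset.sum_le_sum fun e _ => Finset.sum_le_sum fun i _ => Finset.sum_le_sum fun j _ =>
      hpt e i j
  have spl : ∑ e, ∑ i, ∑ j, (F e i j + F i e j + F j e i) = 3 * ∑ e, ∑ i, ∑ j, F e i j := by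
    simp only [Finset.sum_add_distrib]
    rw [s1, s2]; ring
  have t1 : ∑ e, ∑ i, ∑ j, A i e j ^ 2 = ∑ i, ∑ e, ∑ j, A i e j ^ 2 := Finset.sum_comm
  have t2 : ∑ e, ∑ i, ∑ j, A j e i ^ 2 = ∑ i, ∑ e, ∑ j, A i e j ^ 2 := by
    have a1 : ∑ e, ∑ i, ∑ j, A j e i ^ 2 = ∑ e, ∑ j, ∑ i, A j e i ^ 2 :=
      Finset.sum_congr rfl fun e _ => Finset.sum_comm
    rw [a1, Finset.sum_comm]
  have rhs : ∑ e, ∑ i, ∑ j, 1951 / 1000 * (A e i j ^ 2 + A i e j ^ 2 + A j e i ^ 2) =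
      3 * (1951 / 1000 * ∑ i, ∑ e, ∑ j, A i e j ^ 2) := by
    have : ∑ e, ∑ i, ∑ j, 1951 / 1000 * (A e i j ^ 2 + A i e j ^ 2 + A j e i ^ 2) =
        1951 / 1000 * ∑ e, ∑ i, ∑ j, (A e i j ^ 2 + A i e j ^ 2 + A j e i ^ 2) := by
      simp only [Finset.mul_sum]
    rw [this]
    simp only [Finset.sum_add_distrib]
    rw [t1, t2]; ring
  rw [spl, rhs] at tot
  linarith

end Vale.Agent.P245.H646
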